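import Mathlib

/-!
# A zero lemma on the multiplicative torus (elimination by resultants)
-/

namespace Vale.Agent.P024W

open MvPolynomial

/-- Relatively prime polynomials over a factorial domain have a nonzero resultant. -/
theorem resultant_ne_zero_of_isRelPrime {R : Type*} [CommRing R] [IsDomain R]
    [UniqueFactorizationMonoid R] (f g : Polynomial R) (hf : f ≠ 0) (h : IsRelPrime f g) :
    f.resultant g f.natDegree g.natDegree ≠ 0 := by
  classical
  intro h0
  set m := f.natDegree
  set n := g.natDegree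
  let b₁ := ((Polynomial.degreeLT.basis R m).prod (Polynomial.degreeLT.basis R n)).reindex
    finSumFinEquiv
  let b₂ := Polynomial.degreeLT.basis R (m + n)
  have hdet : ((Polynomial.sylvesterMap f g (le_refl m) (le_refl n)).toMatrix b₁ b₂).det = 0 := by
    rw [Polynomial.toMatrix_sylvesterMap']
    exact h0
  obtain ⟨v, hv0, hv⟩ := Matrix.exists_mulVec_eq_zero_iff.mpr hdet
  set w := b₁.equivFun.symm v with hw
  have hw0 : w ≠ 0 := by
    intro h'
    apply hv0
    have := congrArg b₁.equivFun h'
    rwa [hw, LinearEquiv.apply_symm_apply, map_zero] at this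
  have hrepr : ⇑(b₁.repr w) = v := by
    have : b₁.equivFun w = v := by rw [hw, LinearEquiv.apply_symm_apply]
    rw [← this]
    rfl
  have hS : Polynomial.sylvesterMap f g (le_refl m) (le_refl n) w = 0 := by
    have h1 := LinearMap.toMatrix_mulVec_repr b₁ b₂
      (Polynomial.sylvesterMap f g (le_refl m) (le_refl n)) w
    rw [hrepr, hv] at h1
    have h2 : b₂.repr (Polynomial.sylvesterMap f g (le_refl m) (le_refl n) w) = 0 := by
      ext i
      exact (congrFun h1 i).symm
    simpa using h2
  have hE : f * w.2.1 + g * w.1.1 = 0 := by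
    have := congrArg Subtype.val hS
    simpa using this
  have hdvd : f ∣ g * w.1.1 := ⟨-w.2.1, by linear_combination hE⟩
  have hd2 : f ∣ w.1.1 := h.dvd_of_dvd_mul_left hdvd
  have hp : w.1.1 = 0 := by
    by_contra hne
    have h1 := Polynomial.degree_le_of_dvd hd2 hne
    have h2 : w.1.1.degree < m := Polynomial.mem_degreeLT.mp w.1.2
    rw [Polynomial.degree_eq_natDegree hf] at h1
    exact absurd (h1.trans_lt h2) (lt_irrefl _)
  have hq : w.2.1 = 0 := by
    rw [hp, mul_zero, add_zero] at hE
    exact (mul_eq_zero.mp hE).resolve_left hf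
  apply hw0
  ext1
  · exact Subtype.ext hp
  · exact Subtype.ext hq

theorem totalDegree_det_le {σ K n : Type*} [CommRing K] [Fintype n] [DecidableEq n]
    (A : Matrix n n (MvPolynomial σ K)) (L : ℕ) (h : ∀ i j, (A i j).totalDegree ≤ L) :
    A.det.totalDegree ≤ Fintype.card n * L := by
  rw [Matrix.det_apply]
  refine totalDegree_finsetSum_le fun s _ => ?_
  have h1 : (∏ i, A (s i) i).totalDegree ≤ Fintype.card n * L := by
    refine (totalDegree_finsetProd _ _).trans ?_
    refine (Finset.sum_le_sum fun i _ => h (s i) i).trans ?_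
    simp
  rcases Int.units_eq_one_or (Equiv.Perm.sign s) with e | e
  · simpa [e] using h1
  · simpa [e] using h1

theorem totalDegree_coeff_finSuccEquiv_le {D : ℕ} {K : Type*} [CommRing K]
    (P : MvPolynomial (Fin (D + 1)) K) (i : ℕ) :
    ((finSuccEquiv K D P).coeff i).totalDegree ≤ P.totalDegree := by
  by_cases h : (finSuccEquiv K D P).coeff i = 0
  · simp [h]
  · exact le_trans (Nat.le_add_right _ _) (totalDegree_coeff_finSuccEquiv_add_le P i h)

/-- Elimination of the first variable from two relatively prime polynomials. -/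
theorem exists_eliminant {D : ℕ} {K : Type*} [Field K] (L : ℕ)
    (A B : MvPolynomial (Fin (D + 1)) K) (hA : A ≠ 0) (hAB : IsRelPrime A B)
    (hAL : A.totalDegree ≤ L) (hBL : B.totalDegree ≤ L) :
    ∃ R : MvPolynomial (Fin D) K, R ≠ 0 ∧ R.totalDegree ≤ 2 * L ^ 2 + L ∧
      ∀ x : Fin (D + 1) → K, eval x A = 0 → eval x B = 0 → eval (Fin.tail x) R = 0 := by
  classical
  set f := finSuccEquiv K D A with hf
  set g := finSuccEquiv K D B with hg
  have hf0 : f ≠ 0 := by
    intro h
    exact hA ((finSuccEquiv K D).injective (by rw [← hf, h, map_zero]))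
  have hev : ∀ (x : Fin (D + 1) → K) (P : MvPolynomial (Fin (D + 1)) K),
      eval x P = Polynomial.eval (x 0)
        (Polynomial.map (eval (Fin.tail x)) (finSuccEquiv K D P)) := by
    intro x P
    rw [← eval_eq_eval_mv_eval', Fin.cons_self_tail]
  by_cases h0 : f.natDegree = 0
  · refine ⟨f.coeff 0, ?_, ?_, ?_⟩
    · intro h
      apply hf0
      rw [Polynomial.eq_C_of_natDegree_eq_zero h0, h, map_zero]
    · exact ((totalDegree_coeff_finSuccEquiv_le A 0).trans hAL).trans (Nat.le_add_left _ _)
    · intro x hx _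
      rw [hev, ← hf, Polynomial.eq_C_of_natDegree_eq_zero h0] at hx
      simpa using hx
  · have hrel : IsRelPrime f g := by
      intro d hd1 hd2
      have h1 : (finSuccEquiv K D).symm d ∣ A := by
        have := map_dvd (finSuccEquiv K D).symm hd1
        simpa [hf] using this
      have h2 : (finSuccEquiv K D).symm d ∣ B := by
        have := map_dvd (finSuccEquiv K D).symm hd2
        simpa [hg] using this
      have := (hAB h1 h2).map (finSuccEquiv K D)
      simpa using this
    refine ⟨f.resultant g f.natDegree g.natDegree, resultant_ne_zero_of_isRelPrime f g hf0 hrel,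
      ?_, ?_⟩
    · have hm : f.natDegree ≤ L := by
        rw [hf, natDegree_finSuccEquiv]
        exact (degreeOf_le_totalDegree _ _).trans hAL
      have hn : g.natDegree ≤ L := by
        rw [hg, natDegree_finSuccEquiv]
        exact (degreeOf_le_totalDegree _ _).trans hBL
      have := totalDegree_det_le (Polynomial.sylvester f g f.natDegree g.natDegree) L (by
        intro i j
        unfold Polynomial.sylvester
        simp only [Matrix.of_apply]
        refine Fin.addCases (fun j => ?_) (fun j => ?_) j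
        · simp only [Fin.addCases_left]
          split_ifs
          · exact (totalDegree_coeff_finSuccEquiv_le B _).trans hBL
          · simp
        · simp only [Fin.addCases_right]
          split_ifs
          · exact (totalDegree_coeff_finSuccEquiv_le A _).trans hAL
          · simp)
      refine le_trans this ?_
      simp only [Fintype.card_fin]
      nlinarith
    · intro x hx hy
      obtain ⟨p, r, -, -, e⟩ := Polynomial.exists_mul_add_mul_eq_C_resultant f g le_rfl le_rfl
        (Or.inl h0)
      have := congrArg (fun P => Polynomial.eval (x 0) (Polynomial.map (eval (Fin.tail x)) P)) e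
      simp only [Polynomial.map_add, Polynomial.map_mul, Polynomial.eval_add, Polynomial.eval_mul,
        Polynomial.map_C, Polynomial.eval_C] at this
      rw [hev, ← hf] at hx
      rw [hev, ← hg] at hy
      rw [hx, hy] at this
      simpa using this.symm

/-- The scaling `X i ↦ a i • X i`. -/
noncomputable def scale {σ K : Type*} [Field K] (a : σ → Kˣ) :
    MvPolynomial σ K →ₐ[K] MvPolynomial σ K :=
  aeval fun i => C (a i : K) * X i

theorem scale_monomial {σ K : Type*} [Field K] (a : σ → Kˣ) (κ : σ →₀ ℕ) (c : K) :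
    scale a (monomial κ c) = monomial κ ((κ.prod fun i e => (a i : K) ^ e) * c) := by
  rw [scale, aeval_monomial, monomial_eq]
  simp only [mul_pow, Finsupp.prod_mul, algebraMap_eq, map_mul]
  rw [map_finsuppProd]
  simp only [map_pow]
  ring

theorem coeff_scale {σ K : Type*} [Field K] (a : σ → Kˣ) (P : MvPolynomial σ K) (κ : σ →₀ ℕ) :
    coeff κ (scale a P) = (κ.prod fun i e => (a i : K) ^ e) * coeff κ P := by
  classical
  induction P using MvPolynomial.induction_on' with
  | monomial u c =>
    rw [scale_monomial, coeff_monomial, coeff_monomial]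
    split_ifs with h
    · rw [h]
    · simp
  | add p q hp hq => simp only [map_add, coeff_add, hp, hq, mul_add]

theorem scale_scale {σ K : Type*} [Field K] (a b : σ → Kˣ) (P : MvPolynomial σ K) :
    scale a (scale b P) = scale (a * b) P := by
  ext κ
  simp only [coeff_scale, Pi.mul_apply, Units.val_mul, mul_pow, Finsupp.prod_mul, mul_assoc]

theorem scale_one {σ K : Type*} [Field K] (P : MvPolynomial σ K) :
    scale (1 : σ → Kˣ) P = P := by
  ext κ
  simp [coeff_scale]

/-- The scaling as an algebra automorphism. -/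
noncomputable def scaleEquiv {σ K : Type*} [Field K] (a : σ → Kˣ) :
    MvPolynomial σ K ≃ₐ[K] MvPolynomial σ K :=
  AlgEquiv.ofAlgHom (scale a) (scale a⁻¹)
    (by ext1 i; simp only [AlgHom.comp_apply, scale_scale, mul_inv_cancel, scale_one]; rfl)
    (by ext1 i; simp only [AlgHom.comp_apply, scale_scale, inv_mul_cancel, scale_one]; rfl)

theorem scaleEquiv_apply {σ K : Type*} [Field K] (a : σ → Kˣ) (P : MvPolynomial σ K) :
    scaleEquiv a P = scale a P := rfl

theorem totalDegree_scale_le {σ K : Type*} [Field K] (a : σ → Kˣ) (P : MvPolynomial σ K) :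
    (scale a P).totalDegree ≤ P.totalDegree := by
  refine totalDegree_le_of_support_subset ?_
  intro κ hκ
  rw [mem_support_iff] at hκ ⊢
  intro h
  exact hκ (by rw [coeff_scale, h, mul_zero])

theorem eval_scale {σ K : Type*} [Field K] (a : σ → Kˣ) (x : σ → K) (P : MvPolynomial σ K) :
    eval x (scale a P) = eval (fun i => (a i : K) * x i) P := by
  induction P using MvPolynomial.induction_on with
  | C c => simp [scale]
  | add p q hp hq => simp only [map_add, hp, hq]
  | mul_X p i hp => simp only [map_mul, hp]; simp [scale]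

theorem card_factors_le {σ K : Type*} [Field K] (P : MvPolynomial σ K) (hP : P ≠ 0) :
    Multiset.card (UniqueFactorizationMonoid.factors P) ≤ P.totalDegree := by
  have key : ∀ s : Multiset (MvPolynomial σ K), (∀ F ∈ s, Irreducible F) →
      s.prod ≠ 0 ∧ Multiset.card s ≤ s.prod.totalDegree := by
    intro s
    induction s using Multiset.induction_on with
    | empty => simp
    | cons F s ih =>
      intro h
      obtain ⟨h1, h2⟩ := ih fun G hG => h G (Multiset.mem_cons_of_mem hG)
      have hF := h F (Multiset.mem_cons_self _ _)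
      rw [Multiset.prod_cons, Multiset.card_cons]
      refine ⟨mul_ne_zero hF.ne_zero h1, ?_⟩
      rw [totalDegree_mul_of_isDomain hF.ne_zero h1]
      have : F.totalDegree ≠ 0 := by
        intro h0
        rw [totalDegree_eq_zero_iff_eq_C] at h0
        apply hF.not_isUnit
        rw [h0]
        refine IsUnit.map C (Ne.isUnit ?_)
        intro h3
        apply hF.ne_zero
        rw [h0, h3, map_zero]
      omega
  obtain ⟨h1, h2⟩ := key _ fun F hF => UniqueFactorizationMonoid.irreducible_of_factor F hF
  refine h2.trans ?_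
  exact totalDegree_le_of_dvd_of_isDomain
    (UniqueFactorizationMonoid.factors_prod hP).dvd hP

/-- An irreducible polynomial that is not a variable is not fixed by a generic scaling. -/
theorem not_associated_scale {D : ℕ} {K : Type*} [Field K] (a : Fin D → Kˣ)
    (ha : ∀ t : Fin D → ℤ, t ≠ 0 → ∏ i, a i ^ t i ≠ 1)
    (F : MvPolynomial (Fin D) K) (hF : Irreducible F) (hX : ∀ i, ¬ X i ∣ F) :
    ¬ Associated F (scale a F) := by
  classical
  rintro ⟨u, hu⟩
  obtain ⟨c, -, hc⟩ := isUnit_iff_eq_C_of_isReduced.mp u.isUnit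
  have hco : ∀ κ ∈ F.support, (κ.prod fun i e => (a i : K) ^ e) = c := by
    intro κ hκ
    have h1 := congrArg (coeff κ) hu
    rw [hc, mul_comm, coeff_C_mul, coeff_scale] at h1
    exact (mul_right_cancel₀ (mem_support_iff.mp hκ) h1).symm
  obtain ⟨κ, hκ⟩ : F.support.Nonempty := support_nonempty.mpr hF.ne_zero
  have hall : ∀ κ' ∈ F.support, κ' = κ := by
    intro κ' hκ'
    by_contra hne
    apply ha (fun i => (κ' i : ℤ) - κ i)
    · intro h
      apply hne
      ext i
      have := congrFun h i
      simp only [Pi.zero_apply] at this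
      omega
    · have h1 := (hco κ' hκ').trans (hco κ hκ).symm
      rw [Finsupp.prod_fintype _ _ (by simp), Finsupp.prod_fintype _ _ (by simp)] at h1
      have h2 : ∏ i, a i ^ κ' i = ∏ i, a i ^ κ i := by
        apply Units.ext
        simpa using h1
      simp only [zpow_sub, zpow_natCast, Finset.prod_mul_distrib, Finset.prod_inv_distrib, h2,
        mul_inv_cancel]
  have hFm : F = monomial κ (coeff κ F) := by
    conv_lhs => rw [F.as_sum]
    rw [Finset.sum_eq_single κ]
    · intro b hb hne
      exact absurd (hall b hb) hne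
    · intro h
      exact absurd hκ h
  by_cases h0 : κ = 0
  · apply hF.not_isUnit
    rw [hFm, h0]
    refine IsUnit.map C (Ne.isUnit ?_)
    rw [← h0]
    exact mem_support_iff.mp hκ
  · obtain ⟨i, hi⟩ : ∃ i, κ i ≠ 0 := by
      by_contra h
      push Not at h
      exact h0 (Finsupp.ext h)
    apply hX i
    rw [hFm]
    exact X_dvd_monomial.mpr (Or.inr hi)

/-- Two translates of a polynomial without monomial factor are relatively prime. -/
theorem exists_isRelPrime_scale {D : ℕ} {K G : Type*} [Field K] [CommGroup G]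
    (χ : Fin D → G →* Kˣ)
    (hχ : ∀ t : Fin D → ℤ, t ≠ 0 → ∀ γ : G, γ ≠ 1 → ∏ i, χ i γ ^ t i ≠ 1)
    (Γ : Finset G) (L : ℕ) (hΓ : L ^ 2 < Γ.card)
    (P : MvPolynomial (Fin D) K) (hP : P ≠ 0) (hL : P.totalDegree ≤ L) (hX : ∀ i, ¬ X i ∣ P) :
    ∃ γ₀ ∈ Γ, ∃ γ₁ ∈ Γ, IsRelPrime (scale (fun i => χ i γ₀) P) (scale (fun i => χ i γ₁) P) := by
  classical
  obtain ⟨γ₀, hγ₀⟩ : Γ.Nonempty := Finset.card_pos.mp (by omega)
  by_contra hcon
  push Not at hcon
  set T := (UniqueFactorizationMonoid.factors P).toFinset with hT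
  have hTc : T.card ≤ L :=
    (Multiset.toFinset_card_le _).trans ((card_factors_le P hP).trans hL)
  have hfac : ∀ (a : Fin D → Kˣ) (F : MvPolynomial (Fin D) K), Irreducible F →
      F ∣ scale a P → ∃ F' ∈ T, Associated F (scale a F') := by
    intro a F hF hd
    have h1 : Irreducible ((scaleEquiv a).symm F) := (MulEquiv.irreducible_iff _).mpr hF
    have h2 : (scaleEquiv a).symm F ∣ P := by
      have := map_dvd (scaleEquiv a).symm hd
      rwa [← scaleEquiv_apply, AlgEquiv.symm_apply_apply] at this
    obtain ⟨F', hF', hass⟩ := UniqueFactorizationMonoid.exists_mem_factors_of_dvd hP h1 h2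
    refine ⟨F', Multiset.mem_toFinset.mpr hF', ?_⟩
    have := hass.map (scaleEquiv a)
    rwa [AlgEquiv.apply_symm_apply, scaleEquiv_apply] at this
  have hex : ∀ γ ∈ Γ, ∃ p ∈ T ×ˢ T,
      Associated (scale (fun i => χ i γ) p.1) (scale (fun i => χ i γ₀) p.2) := by
    intro γ hγ
    have hn := hcon γ hγ γ₀ hγ₀
    have hne : scale (fun i => χ i γ) P ≠ 0 := by
      rw [← scaleEquiv_apply]
      simpa using hP
    rw [UniqueFactorizationMonoid.isRelPrime_iff_no_prime_factors hne] at hn
    push Not at hn
    obtain ⟨F, h1, h2, h3⟩ := hn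
    obtain ⟨F₁, hF₁, e₁⟩ := hfac _ F h3.irreducible h1
    obtain ⟨F₂, hF₂, e₂⟩ := hfac _ F h3.irreducible h2
    exact ⟨(F₁, F₂), Finset.mem_product.mpr ⟨hF₁, hF₂⟩, e₁.symm.trans e₂⟩
  choose! φ hφ1 hφ2 using hex
  have hcard : (T ×ˢ T).card < Γ.card := by
    rw [Finset.card_product]
    calc T.card * T.card ≤ L * L := Nat.mul_le_mul hTc hTc
      _ = L ^ 2 := by ring
      _ < _ := hΓ
  obtain ⟨γ, hγ, γ', hγ', hne, he⟩ := Finset.exists_ne_map_eq_of_card_lt_of_maps_to hcard hφ1
  have h1 := hφ2 γ hγ
  have h2 := hφ2 γ' hγ'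
  rw [← he] at h2
  have h3 := h1.trans h2.symm
  set F := (φ γ).1 with hF
  have hFT : F ∈ T := (Finset.mem_product.mp (hφ1 γ hγ)).1
  have hFf := Multiset.mem_toFinset.mp hFT
  have h4 := h3.map (scale (fun i => χ i γ)⁻¹)
  rw [scale_scale, scale_scale, inv_mul_cancel, scale_one] at h4
  refine not_associated_scale _ ?_ F (UniqueFactorizationMonoid.irreducible_of_factor F hFf)
    (fun i hi => hX i (hi.trans (UniqueFactorizationMonoid.dvd_of_mem_factors hFf))) h4
  intro t ht
  have := hχ t ht (γ⁻¹ * γ') (by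
    intro h
    exact hne (inv_mul_eq_one.mp h))
  simpa using this

/-- Removing the monomial factors. -/
theorem exists_no_X_factor {D : ℕ} {K : Type*} [Field K] (P : MvPolynomial (Fin D) K)
    (hP : P ≠ 0) : ∃ Q : MvPolynomial (Fin D) K, Q ≠ 0 ∧ Q.totalDegree ≤ P.totalDegree ∧
      (∀ i, ¬ X i ∣ Q) ∧ ∀ x : Fin D → K, (∀ i, x i ≠ 0) → eval x P = 0 → eval x Q = 0 := by
  induction h : P.totalDegree using Nat.strong_induction_on generalizing P with
  | _ n ih =>
    by_cases hX : ∀ i, ¬ X i ∣ P
    · exact ⟨P, hP, h.le, hX, fun x _ hx => hx⟩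
    · push Not at hX
      obtain ⟨i, P', rfl⟩ := hX
      have hP' : P' ≠ 0 := right_ne_zero_of_mul hP
      rw [totalDegree_mul_of_isDomain (X_ne_zero i) hP', totalDegree_X] at h
      obtain ⟨Q, h1, h2, h3, h4⟩ := ih P'.totalDegree (by omega) P' hP' rfl
      refine ⟨Q, h1, by omega, h3, fun x hx he => h4 x hx ?_⟩
      rw [map_mul, eval_X] at he
      exact (mul_eq_zero.mp he).resolve_left (hx i)

/-- The zero lemma. -/
theorem zero_lemma (D : ℕ) {K G : Type*} [Field K] [CommGroup G] :
    ∀ (χ : Fin D → G →* Kˣ),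
    (∀ t : Fin D → ℤ, t ≠ 0 → ∀ γ : G, γ ≠ 1 → ∏ i, χ i γ ^ t i ≠ 1) →
    ∀ (Γ : Finset G) (L : ℕ), (3 * L + 3) ^ (2 ^ D) < Γ.card →
    ∀ P : MvPolynomial (Fin D) K, P ≠ 0 → P.totalDegree ≤ L →
    ∃ g : Fin D → G, (∀ k, g k ∈ Γ) ∧ eval (fun i => (χ i (∏ k, g k) : K)) P ≠ 0 := by
  induction D with
  | zero =>
    intro χ _ Γ L _ P hP _
    refine ⟨fun k => k.elim0, fun k => k.elim0, ?_⟩
    rw [eq_C_of_isEmpty P] at hP ⊢
    simpa using hP
  | succ D ih =>
    intro χ hχ Γ L hΓ P hP hL
    by_contra hcon
    push Not at hcon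
    obtain ⟨Q, hQ, hQL, hX, hQv⟩ := exists_no_X_factor P hP
    have hL2 : L ^ 2 < Γ.card := by
      refine lt_of_le_of_lt ?_ hΓ
      calc L ^ 2 ≤ (3 * L + 3) ^ 2 := Nat.pow_le_pow_left (by omega) _
        _ ≤ (3 * L + 3) ^ (2 ^ (D + 1)) := by
          refine Nat.pow_le_pow_right (by omega) ?_
          calc 2 = 2 ^ 1 := by norm_num
            _ ≤ 2 ^ (D + 1) := Nat.pow_le_pow_right (by norm_num) (by omega)
    obtain ⟨γ₀, h₀, γ₁, h₁, hrel⟩ := exists_isRelPrime_scale χ hχ Γ L hL2 Q hQ (hQL.trans hL) hX
    obtain ⟨R, hR, hRL, hRv⟩ := exists_eliminant L _ _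
      (by rw [← scaleEquiv_apply]; simpa using hQ) hrel
      ((totalDegree_scale_le _ _).trans (hQL.trans hL))
      ((totalDegree_scale_le _ _).trans (hQL.trans hL))
    obtain ⟨g, hg, hgv⟩ := ih (fun i => χ i.succ) (by
      intro t ht γ hγ
      have := hχ (Fin.cons 0 t) (by
        intro h
        apply ht
        funext i
        simpa using congrFun h i.succ) γ hγ
      simpa [Fin.prod_univ_succ] using this) Γ (2 * L ^ 2 + L) (by
      refine lt_of_le_of_lt ?_ hΓ
      rw [pow_succ' 2 D, pow_mul]
      exact Nat.pow_le_pow_left (by nlinarith) _) R hR hRL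
    apply hgv
    have key : ∀ γ ∈ Γ, eval (fun i => (χ i (∏ k, g k) : K)) (scale (fun i => χ i γ) Q) = 0 := by
      intro γ hγ
      rw [eval_scale]
      refine hQv _ (fun i => mul_ne_zero (Units.ne_zero _) (Units.ne_zero _)) ?_
      have := hcon (Fin.cons γ g) (by
        intro k
        refine Fin.cases ?_ (fun k => ?_) k
        · simpa using hγ
        · simpa using hg k)
      simpa [Fin.prod_univ_succ] using this
    have := hRv (fun i => (χ i (∏ k, g k) : K)) (key γ₀ h₀) (key γ₁ h₁)
    exact this

end Vale.Agent.P024W
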